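import Vale.Agent.Lib.LF.Central

/-!
Kaplansky's zero-divisor conjecture is closed under extensions whose kernel is locally free, or
central and torsion-free; coefficients in an arbitrary ring.
-/

open Vale.Agent.Lib.LF in
theorem Vale.Agent.Results.P201.LocallyFreeKernel.result
    (K : Type*) [Ring K] (G : Type*) [Group G] (N : Subgroup G) [N.Normal]
    (hN : (∀ H : Subgroup G, H ≤ N → H.FG → IsFreeGroup H) ∨
      (N ≤ Subgroup.center G ∧ ∀ x ∈ N, ∀ k : ℕ, 0 < k → x ^ k = 1 → x = 1))
    (h : NoZeroDivisors (MonoidAlgebra K (G ⧸ N))) : NoZeroDivisors (MonoidAlgebra K G) := by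
  rcases hN with hN | ⟨hc, htf⟩
  · exact noZeroDivisors N hN h
  · exact noZeroDivisors_of_sep N (sep_of_central N hc htf) h
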