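import Vale.Agent.Lib.P201.Trinomial

/-!
# P201 (Kaplansky's zero-divisor conjecture): three-term zero divisors

Let `G` be a torsion-free group, `K` a field and `α = a g₁ + b g₂ + c g₃` a three-term element
of `K[G]` which is a left or right zero divisor.  Then

* all quotients of two of the coefficients are integral over `ℤ`;
* every real absolute value on `K` satisfies the strict triangle inequalities on `a, b, c`;
* every homomorphism from a subgroup containing `g₁⁻¹ g₂` and `g₁⁻¹ g₃` to a group with the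
  unique-product property kills `g₁⁻¹ g₂` and `g₁⁻¹ g₃`.
-/

namespace Vale.Agent.Results.P201.Trinomial

open MonoidAlgebra Vale.Agent.Lib.P201

theorem result {K : Type*} [Field K] {G : Type*} [Group G]
    (hG : ∀ g : G, ∀ n : ℕ, 0 < n → g ^ n = 1 → g = 1)
    (g₁ g₂ g₃ : G) (h12 : g₁ ≠ g₂) (h13 : g₁ ≠ g₃) (h23 : g₂ ≠ g₃)
    (a b c : K) (ha : a ≠ 0) (hb : b ≠ 0) (hc : c ≠ 0)
    (β : MonoidAlgebra K G) (hβ : β ≠ 0)
    (h : (single g₁ a + single g₂ b + single g₃ c) * β = 0 ∨
      β * (single g₁ a + single g₂ b + single g₃ c) = 0) :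
    (IsIntegral ℤ (b / a) ∧ IsIntegral ℤ (a / b) ∧ IsIntegral ℤ (c / a) ∧
      IsIntegral ℤ (a / c) ∧ IsIntegral ℤ (c / b) ∧ IsIntegral ℤ (b / c)) ∧
    (∀ w : AbsoluteValue K ℝ, w a < w b + w c ∧ w b < w a + w c ∧ w c < w a + w b) ∧
    (∀ (Q : Type*) [Group Q] [UniqueProds Q] (H : Subgroup G)
      (hx : g₁⁻¹ * g₂ ∈ H) (hy : g₁⁻¹ * g₃ ∈ H) (φ : H →* Q),
      φ ⟨g₁⁻¹ * g₂, hx⟩ = 1 ∧ φ ⟨g₁⁻¹ * g₃, hy⟩ = 1) := by
  classical
  have hv : ∀ V : ValuationSubring K, V.valuation a = V.valuation b ∧
      V.valuation a = V.valuation c := fun V =>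
    valuation_eq hG V.valuation g₁ g₂ g₃ h12 h13 h23 a b c ha β hβ h
  refine ⟨⟨?_, ?_, ?_, ?_, ?_, ?_⟩, ?_, ?_⟩
  · exact isIntegral_div_of_valuation a b ha fun V => (hv V).1
  · exact isIntegral_div_of_valuation b a hb fun V => (hv V).1.symm
  · exact isIntegral_div_of_valuation a c ha fun V => (hv V).2
  · exact isIntegral_div_of_valuation c a hc fun V => (hv V).2.symm
  · exact isIntegral_div_of_valuation b c hb fun V => (hv V).1.symm.trans (hv V).2
  · exact isIntegral_div_of_valuation c b hc fun V => (hv V).2.symm.trans (hv V).1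
  · intro w
    set α : MonoidAlgebra K G := single g₁ a + single g₂ b + single g₃ c with hα
    have e1 : α.coeff g₁ = a := coeff_one g₁ g₂ g₃ h12 h13 a b c
    have e2 : α.coeff g₂ = b := coeff_two g₁ g₂ g₃ h12 h23 a b c
    have e3 : α.coeff g₃ = c := coeff_three g₁ g₂ g₃ h13 h23 a b c
    have hαne : α ≠ 0 := by
      intro h0
      rw [h0] at e1
      exact ha (by simpa using e1.symm)
    have hsupp : α.coeff.support = {g₁, g₂, g₃} := support_eq g₁ g₂ g₃ h12 h13 h23 a b c ha hb hc
    have key := lt_sum_absoluteValue hG w α β hαne hβ h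
    refine ⟨?_, ?_, ?_⟩
    · have := key g₁
      rw [hsupp, e1] at this
      have hs : ({g₁, g₂, g₃} : Finset G).erase g₁ = {g₂, g₃} := by
        ext g; simp only [Finset.mem_erase, Finset.mem_insert, Finset.mem_singleton]
        constructor
        · rintro ⟨h1, h2 | h2 | h2⟩
          · exact absurd h2 h1
          · exact Or.inl h2
          · exact Or.inr h2
        · rintro (h2 | h2)
          · exact ⟨h2 ▸ h12.symm, Or.inr (Or.inl h2)⟩
          · exact ⟨h2 ▸ h13.symm, Or.inr (Or.inr h2)⟩
      rw [hs, Finset.sum_pair h23, e2, e3] at this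
      exact this
    · have := key g₂
      rw [hsupp, e2] at this
      have hs : ({g₁, g₂, g₃} : Finset G).erase g₂ = {g₁, g₃} := by
        ext g; simp only [Finset.mem_erase, Finset.mem_insert, Finset.mem_singleton]
        constructor
        · rintro ⟨h1, h2 | h2 | h2⟩
          · exact Or.inl h2
          · exact absurd h2 h1
          · exact Or.inr h2
        · rintro (h2 | h2)
          · exact ⟨h2 ▸ h12, Or.inl h2⟩
          · exact ⟨h2 ▸ h23.symm, Or.inr (Or.inr h2)⟩
      rw [hs, Finset.sum_pair h13, e1, e3] at this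
      exact this
    · have := key g₃
      rw [hsupp, e3] at this
      have hs : ({g₁, g₂, g₃} : Finset G).erase g₃ = {g₁, g₂} := by
        ext g; simp only [Finset.mem_erase, Finset.mem_insert, Finset.mem_singleton]
        constructor
        · rintro ⟨h1, h2 | h2 | h2⟩
          · exact Or.inl h2
          · exact Or.inr h2
          · exact absurd h2 h1
        · rintro (h2 | h2)
          · exact ⟨h2 ▸ h13, Or.inl h2⟩
          · exact ⟨h2 ▸ h23, Or.inr (Or.inl h2)⟩
      rw [hs, Finset.sum_pair h12, e1, e2] at this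
      exact this
  · intro Q _ _ H hx hy φ
    exact hom_trivial hG g₁ g₂ g₃ h12 h13 a b c ha β hβ h H hx hy φ

end Vale.Agent.Results.P201.Trinomial
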