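import Vale.Agent.Results.P201.Balanced
import Vale.Agent.Results.P201.LocallyFreeKernel
import Vale.Agent.Results.P201.Trinomial

/-!
# P201 (Kaplansky's zero-divisor conjecture): the three different partial results in one theorem

(1) closure under extensions with locally free, or central torsion-free, kernel;
(2) the coefficients of a zero divisor are balanced at every valuation and absolute value;
(3) restrictions on three-term zero divisors.
-/

namespace Vale.Agent.Results.P201.A_Combined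

open MonoidAlgebra

universe u v w

/-- Statement (1): closure under extensions with locally free or central torsion-free kernel. -/
def KernelClosure : Prop :=
  ∀ (K : Type u) [Ring K] (G : Type v) [Group G] (N : Subgroup G) [N.Normal],
    ((∀ H : Subgroup G, H ≤ N → H.FG → IsFreeGroup H) ∨
      (N ≤ Subgroup.center G ∧ ∀ x ∈ N, ∀ k : ℕ, 0 < k → x ^ k = 1 → x = 1)) →
    NoZeroDivisors (MonoidAlgebra K (G ⧸ N)) → NoZeroDivisors (MonoidAlgebra K G)

/-- Statement (2): zero divisors over torsion-free groups have balanced coefficients. -/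
def BalancedCoeffs : Prop :=
  ∀ (K : Type u) [Field K] (G : Type v) [Group G],
    (∀ g : G, ∀ n : ℕ, 0 < n → g ^ n = 1 → g = 1) →
    ∀ α β : MonoidAlgebra K G, α ≠ 0 → β ≠ 0 → (α * β = 0 ∨ β * α = 0) →
    (∀ (Γ₀ : Type w) [LinearOrderedCommGroupWithZero Γ₀] (v : Valuation K Γ₀),
      ∃ s : Finset G, s.card = 3 ∧
        ∀ g ∈ s, α.coeff g ≠ 0 ∧ ∀ g' : G, v (α.coeff g') ≤ v (α.coeff g)) ∧
    (∀ (w : AbsoluteValue K ℝ) (g : G),
      2 * w (α.coeff g) < ∑ g' ∈ α.coeff.support, w (α.coeff g'))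

/-- Statement (3): restrictions on three-term zero divisors over torsion-free groups. -/
def ThreeTerm : Prop :=
  ∀ (K : Type u) [Field K] (G : Type v) [Group G],
    (∀ g : G, ∀ n : ℕ, 0 < n → g ^ n = 1 → g = 1) →
    ∀ g₁ g₂ g₃ : G, g₁ ≠ g₂ → g₁ ≠ g₃ → g₂ ≠ g₃ →
    ∀ a b c : K, a ≠ 0 → b ≠ 0 → c ≠ 0 →
    ∀ β : MonoidAlgebra K G, β ≠ 0 →
    ((single g₁ a + single g₂ b + single g₃ c) * β = 0 ∨
      β * (single g₁ a + single g₂ b + single g₃ c) = 0) →
    (IsIntegral ℤ (b / a) ∧ IsIntegral ℤ (a / b) ∧ IsIntegral ℤ (c / a) ∧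
      IsIntegral ℤ (a / c) ∧ IsIntegral ℤ (c / b) ∧ IsIntegral ℤ (b / c)) ∧
    (∀ w : AbsoluteValue K ℝ, w a < w b + w c ∧ w b < w a + w c ∧ w c < w a + w b) ∧
    (∀ (Q : Type w) [Group Q] [UniqueProds Q] (H : Subgroup G)
      (hx : g₁⁻¹ * g₂ ∈ H) (hy : g₁⁻¹ * g₃ ∈ H) (φ : H →* Q),
      φ ⟨g₁⁻¹ * g₂, hx⟩ = 1 ∧ φ ⟨g₁⁻¹ * g₃, hy⟩ = 1)

theorem result : KernelClosure.{u, v} ∧ BalancedCoeffs.{u, v, w} ∧ ThreeTerm.{u, v, w} :=
  ⟨fun K _ G _ N _ hN h => Vale.Agent.Results.P201.LocallyFreeKernel.result K G N hN h,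
    fun _ _ _ _ hG α β hα hβ h => Vale.Agent.Results.P201.Balanced.result hG α β hα hβ h,
    fun _ _ _ _ hG g₁ g₂ g₃ h12 h13 h23 a b c ha hb hc β hβ h =>
      Vale.Agent.Results.P201.Trinomial.result hG g₁ g₂ g₃ h12 h13 h23 a b c ha hb hc β hβ h⟩

end Vale.Agent.Results.P201.A_Combined
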