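import Vale.Agent.Lib.P201.MaxPrinciple

/-!
# P201 (Kaplansky's zero-divisor conjecture): zero divisors have balanced coefficients

Let `G` be a torsion-free group and `K` a field.  If `α ≠ 0` is a left or right zero divisor of
`K[G]`, then

* for every valuation `v` on `K` (with values in any linearly ordered commutative group with zero)
  the maximum of `v` on the coefficients of `α` is attained by at least three coefficients;
* for every real absolute value `w` on `K`, every coefficient of `α` is strictly smaller than the
  sum of all the other ones (written as `2 w(α_g) < ∑ w(α_h)`).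
-/

namespace Vale.Agent.Results.P201.Balanced

open Vale.Agent.Lib.P201

theorem result {K : Type*} [Field K] {G : Type*} [Group G]
    (hG : ∀ g : G, ∀ n : ℕ, 0 < n → g ^ n = 1 → g = 1)
    (α β : MonoidAlgebra K G) (hα : α ≠ 0) (hβ : β ≠ 0) (h : α * β = 0 ∨ β * α = 0) :
    (∀ (Γ₀ : Type*) [LinearOrderedCommGroupWithZero Γ₀] (v : Valuation K Γ₀),
      ∃ s : Finset G, s.card = 3 ∧
        ∀ g ∈ s, α.coeff g ≠ 0 ∧ ∀ g' : G, v (α.coeff g') ≤ v (α.coeff g)) ∧
    (∀ (w : AbsoluteValue K ℝ) (g : G),
      2 * w (α.coeff g) < ∑ g' ∈ α.coeff.support, w (α.coeff g')) := by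
  classical
  constructor
  · intro Γ₀ _ v
    obtain ⟨s, hs, hcard⟩ := Finset.exists_subset_card_eq (card_valuation hG v α β hα hβ h)
    refine ⟨s, hcard, fun g hg => ?_⟩
    have := Finset.mem_filter.mp (hs hg)
    exact ⟨Finsupp.mem_support_iff.mp this.1, this.2⟩
  · intro w g
    have hlt := lt_sum_absoluteValue hG w α β hα hβ h g
    by_cases hg : g ∈ α.coeff.support
    · rw [← Finset.add_sum_erase _ _ hg]
      linarith
    · rw [Finset.erase_eq_of_notMem hg] at hlt
      rw [Finsupp.notMem_support_iff.mp hg, map_zero] at hlt ⊢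
      linarith

end Vale.Agent.Results.P201.Balanced
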