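import Vale.Agent.Lib.P201.FKLen
import Vale.Agent.Lib.P201.FKAnn
import Vale.Agent.Lib.P201.FKInv

/-!
Kaplansky's zero-divisor conjecture is closed under extensions with free kernel:
if `N` is a free normal subgroup of `G` and `K[G/N]` has no zero divisors, then `K[G]` has no
zero divisors.
-/

open Vale.Agent.Lib.P201 MonoidAlgebra in
theorem Vale.Agent.Results.P201.FreeKernel.result
    (K : Type*) [CommRing K] (G : Type*) [Group G] (N : Subgroup G) [N.Normal] [IsFreeGroup N]
    (h : NoZeroDivisors (MonoidAlgebra K (G ⧸ N))) : NoZeroDivisors (MonoidAlgebra K G) := by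
  obtain ⟨len, hl⟩ := exists_isLen N (IsFreeGroup.toFreeGroup N).symm
  obtain ⟨ι, hmul, hinv, h0, hπ⟩ := exists_antiInv K G N
  refine ⟨fun {a b} hab => ?_⟩
  by_contra hne
  rw [not_or] at hne
  obtain ⟨ha, hb⟩ := hne
  obtain ⟨c, hc, hcb⟩ := exists_ann (K := K) hl a ha
  have h1 : c * b = 0 := hcb b hab
  have hιb : ι b ≠ 0 := fun h => hb (by rw [← hinv b, h, h0])
  obtain ⟨d, hd, hdb⟩ := exists_ann (K := K) hl (ι b) hιb
  have h2 : ι b * ι c = 0 := by rw [← hmul, h1, h0]
  have h3 : d * ι c = 0 := hdb _ h2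
  have h4 : c * ι d = 0 := by
    have : ι (d * ι c) = 0 := by rw [h3, h0]
    rwa [hmul, hinv] at this
  have h5 : mapDomainRingHom K (QuotientGroup.mk' N) c *
      mapDomainRingHom K (QuotientGroup.mk' N) (ι d) = 0 := by
    rw [← map_mul, h4, map_zero]
  rcases h.eq_zero_or_eq_zero_of_mul_eq_zero h5 with h6 | h6
  · exact hc h6
  · exact hd (hπ d h6)
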